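import Vale.Agent.Sparse.Main

/-!
# P295: stable coordinates with at most three nonconstant terms are coordinates
-/

namespace Vale.Agent.Results.P295.FewTerms

open MvPolynomial

/-- `f` is a coordinate: some automorphism sends it to a variable. -/
def IsCoordinate {σ : Type} (f : MvPolynomial σ ℂ) : Prop :=
  ∃ (e : MvPolynomial σ ℂ ≃ₐ[ℂ] MvPolynomial σ ℂ) (i : σ), e f = X i

/-- `f` is an `m`-stable coordinate: it is a coordinate after adding `m` new variables. -/
def IsStableCoordinate {n : ℕ} (m : ℕ) (f : MvPolynomial (Fin n) ℂ) : Prop :=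
  IsCoordinate (rename Sum.inl f : MvPolynomial (Fin n ⊕ Fin m) ℂ)

theorem result (n m : ℕ) (f : MvPolynomial (Fin n) ℂ) (hf : IsStableCoordinate m f) :
    -- at most three nonconstant terms
    ((f.support.erase 0).card ≤ 3 → IsCoordinate f) ∧
    -- `f = x_a (c₀ + v) + c x^q + d`, where `x^q` does not involve `x_a`, `v` has no constant
    -- term, and each variable of `x^q` occurs in all terms of `v` or in none
    (∀ (a : Fin n) (q : Fin n →₀ ℕ) (c₀ c d : ℂ) (v : MvPolynomial (Fin n) ℂ),
      f = X a * (C c₀ + v) + monomial q c + C d → q a = 0 → c₀ ≠ 0 → coeff 0 v = 0 →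
      (∀ j, q j ≠ 0 → (∀ m ∈ v.support, m j ≠ 0) ∨ (∀ m ∈ v.support, m j = 0)) →
      IsCoordinate f) := by
  classical
  have hinj : Function.Injective (Sum.inl : Fin n → Fin n ⊕ Fin m) := Sum.inl_injective
  have hst : Vale.Agent.Sparse.IsCoord (rename Sum.inl f : MvPolynomial (Fin n ⊕ Fin m) ℂ) := hf
  constructor
  · intro h3
    apply Vale.Agent.Sparse.coord_sub_const (-coeff 0 f)
    have hN := Vale.Agent.Sparse.niceFin_of_stable _ hst (-coeff 0 f)
    have hc : ∀ m, coeff m (f + C (-coeff 0 f)) = if m = 0 then 0 else coeff m f := by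
      intro m
      rw [coeff_add, coeff_C]
      by_cases hm : m = 0
      · rw [if_pos hm, if_pos hm.symm, hm, add_neg_cancel]
      · rw [if_neg hm, if_neg (Ne.symm hm), add_zero]
    refine Vale.Agent.Sparse.coord_of_three _ hinj _ ?_ ?_ hN
    · rw [constantCoeff_eq, hc, if_pos rfl]
    · refine le_trans (Finset.card_le_card ?_) h3
      intro m hm
      rw [mem_support_iff, hc] at hm
      rw [Finset.mem_erase, mem_support_iff]
      split_ifs at hm with h0
      · exact absurd rfl hm
      · exact ⟨h0, hm⟩
  · intro a q c₀ c d v hfv hqa hc₀ hv0 hdich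
    apply Vale.Agent.Sparse.coord_sub_const (-d)
    have hN := Vale.Agent.Sparse.niceFin_of_stable _ hst (-d)
    have hfd : f + C (-d) = X a * (C c₀ + v) + monomial q c := by
      rw [hfv, add_assoc, ← C_add, add_neg_cancel, C_0, add_zero]
    refine Vale.Agent.Sparse.coord_of_class _ hinj _ v q c₀ c a hfd hqa hc₀
      (by rw [constantCoeff_eq]; exact hv0) ?_ hN
    intro j hj
    rcases hdich j hj with h | h
    · left
      exact Vale.Agent.Sparse.X_dvd_of j v (fun m hm => h m (mem_support_iff.mpr hm))
    · right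
      conv_rhs => rw [← support_sum_monomial_coeff v]
      conv_lhs => rw [← support_sum_monomial_coeff v]
      rw [map_sum]
      refine Finset.sum_congr rfl fun m hm => ?_
      apply Vale.Agent.Sparse.kill_monomial_not_mem
      intro k hk
      rw [Set.mem_singleton_iff.mp hk]
      exact h m hm

end Vale.Agent.Results.P295.FewTerms
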